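import Vale.Agent.P331.H489.Ex

/-!
# Row Q2: the three-label inequality QJRL*

Labels `o` (nothing), `r` (sample), `x` (fresh).  `KE k φ ω` : expectation of `φ` after the kernel `k`
acts on all coordinates of `ω`.  `ker θ δ` : `r → x` with probability `θ`, `r → o` with probability
`δ`; the labels `o`, `x` stay.  `XI` : the minimum over the sub-sets `Y` of the fresh labels, with the
weight `lam ^ |Y|`.  `qjrl` : `E [B ^ 4 / Xi] ≤ E_nat φ ^ 3`.
-/

set_option autoImplicit false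
set_option linter.unusedSectionVars false

namespace Vale.Agent.P331.H183

open Finset Vale.Agent.P331.H489

/-- the three labels -/
inductive Lab
  | o | r | x
  deriving DecidableEq

instance : Fintype Lab := ⟨{Lab.o, Lab.r, Lab.x}, fun l => by cases l <;> decide⟩

open Lab

theorem sum_lab (f : Lab → ℝ) : ∑ l, f l = f o + f r + f x := by
  have h : (univ : Finset Lab) = {o, r, x} := rfl
  rw [h, sum_insert (by decide), sum_insert (by decide), sum_singleton]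
  ring

section

variable {E : Type*} [Fintype E] [DecidableEq E]

/-- a law with three labels -/
def law (ρ ε : E → ℝ) (e : E) : Lab → ℝ
  | o => 1 - ρ e - ρ e * ε e
  | r => ρ e
  | x => ρ e * ε e

/-- the natural law -/
def nat3 (ρ θ δ : E → ℝ) (e : E) : Lab → ℝ
  | o => 1 - ρ e * (1 - δ e)
  | r => ρ e * (1 - θ e - δ e)
  | x => ρ e * θ e

/-- the kernel: the label `r` becomes `x` with probability `θ` and `o` with probability `δ` -/
def ker (θ δ : E → ℝ) (e : E) : Lab → Lab → ℝ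
  | o, o => 1
  | o, _ => 0
  | x, x => 1
  | x, _ => 0
  | r, o => δ e
  | r, r => 1 - θ e - δ e
  | r, x => θ e

/-- the expectation after the kernel -/
def KE (k : E → Lab → Lab → ℝ) (φ : (E → Lab) → ℝ) (ω : E → Lab) : ℝ :=
  EX (fun e l => k e (ω e) l) φ

/-- `Y` = the fresh labels with `y e = true` are kept -/
def dropf (y : E → Bool) (ω : E → Lab) : E → Lab :=
  fun e => if ω e = x ∧ y e = false then o else ω e

/-- the number of kept fresh labels -/
def cnt (y : E → Bool) (ω : E → Lab) : ℕ := #{e | ω e = x ∧ y e = true}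

/-- the minimum over `Y` -/
def XI (lam : ℝ) (k : E → Lab → Lab → ℝ) (φ : (E → Lab) → ℝ) (ω : E → Lab) : ℝ :=
  (univ : Finset (E → Bool)).inf' univ_nonempty
    fun y => lam ^ cnt y ω * KE k φ (dropf y ω)

/-- decreasing in the fresh set when the sample is fixed -/
def Dec (φ : (E → Lab) → ℝ) : Prop :=
  ∀ ω ω' : E → Lab, (∀ e, ω' e = ω e ∨ (ω e = o ∧ ω' e = x)) → φ ω' ≤ φ ω

/-- the one-coordinate inequality -/
def OneCoord (lam θ δ ε : ℝ) : Prop :=
  ∀ bo br bx co cr cx : ℝ, 0 < bx → bx ≤ bo → 0 < br → 0 < cx → cx ≤ co → 0 < cr →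
    ((δ + ε) * bo + (1 - θ - δ) * br + (θ - ε) * bx) ^ 4 /
        (δ * co + (1 - θ - δ) * cr + θ * cx) + ε * (bx ^ 4 / min co (lam * cx)) ≤
      (δ + ε) * (bo ^ 4 / co) + (1 - θ - δ) * (br ^ 4 / cr) + θ * (bx ^ 4 / cx)

/-- the parameters of one coordinate -/
structure Par (lam ρ θ δ ε : ℝ) : Prop where
  lam1 : 1 ≤ lam
  rho0 : 0 ≤ ρ
  rho1 : ρ + ρ * ε ≤ 1
  eps0 : 0 ≤ ε
  eps1 : ε ≤ θ
  del0 : 0 < δ
  stay : θ + δ ≤ 1
  one : OneCoord lam θ δ ε

theorem KE_nonneg {k : E → Lab → Lab → ℝ} (hk : ∀ e l l', 0 ≤ k e l l') {φ : (E → Lab) → ℝ}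
    (h : ∀ ω, 0 ≤ φ ω) (ω : E → Lab) : 0 ≤ KE k φ ω :=
  EX_nonneg (fun _ _ => hk _ _ _) h

theorem KE_mono {k : E → Lab → Lab → ℝ} (hk : ∀ e l l', 0 ≤ k e l l') {φ ψ : (E → Lab) → ℝ}
    (h : ∀ ω, φ ω ≤ ψ ω) (ω : E → Lab) : KE k φ ω ≤ KE k ψ ω :=
  EX_mono (fun _ _ => hk _ _ _) h

theorem KE_pos {k : E → Lab → Lab → ℝ} (hk : ∀ e l l', 0 ≤ k e l l')
    (h1 : ∀ e l, ∑ l', k e l l' = 1) {φ : (E → Lab) → ℝ} (h : ∀ ω, 0 < φ ω) (ω : E → Lab) :
    0 < KE k φ ω := by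
  obtain ⟨ω₀, -, h0⟩ := (univ : Finset (E → Lab)).exists_min_image φ ⟨fun _ => o, mem_univ _⟩
  have h2 : KE k (fun _ => φ ω₀) ω ≤ KE k φ ω := KE_mono hk (fun ω' => h0 ω' (mem_univ _)) ω
  have h3 : KE k (fun _ => φ ω₀) ω = φ ω₀ := EX_one _ (fun e => h1 e _) _
  rw [h3] at h2
  exact (h ω₀).trans_le h2

theorem XI_le (lam : ℝ) (k : E → Lab → Lab → ℝ) (φ : (E → Lab) → ℝ) (ω : E → Lab)
    (y : E → Bool) : XI lam k φ ω ≤ lam ^ cnt y ω * KE k φ (dropf y ω) :=
  inf'_le _ (mem_univ y)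

theorem le_XI {lam : ℝ} {k : E → Lab → Lab → ℝ} {φ : (E → Lab) → ℝ} {ω : E → Lab} {a : ℝ}
    (h : ∀ y : E → Bool, a ≤ lam ^ cnt y ω * KE k φ (dropf y ω)) : a ≤ XI lam k φ ω :=
  le_inf' _ _ fun y _ => h y

theorem XI_pos {lam : ℝ} (hl : 0 < lam) {k : E → Lab → Lab → ℝ} (hk : ∀ e l l', 0 ≤ k e l l')
    (h1 : ∀ e l, ∑ l', k e l l' = 1) {φ : (E → Lab) → ℝ} (h : ∀ ω, 0 < φ ω) (ω : E → Lab) :
    0 < XI lam k φ ω := by
  unfold XI
  rw [lt_inf'_iff]
  exact fun y _ => mul_pos (pow_pos hl _) (KE_pos hk h1 h _)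

theorem XI_mono {lam : ℝ} (hl : 0 < lam) {k : E → Lab → Lab → ℝ} (hk : ∀ e l l', 0 ≤ k e l l')
    {φ ψ : (E → Lab) → ℝ} (h : ∀ ω, φ ω ≤ ψ ω) (ω : E → Lab) : XI lam k φ ω ≤ XI lam k ψ ω :=
  le_XI fun y => (XI_le lam k φ ω y).trans
    (mul_le_mul_of_nonneg_left (KE_mono hk h _) (pow_pos hl _).le)

theorem ker_nonneg {θ δ : E → ℝ} (h0 : ∀ e, 0 ≤ θ e) (h1 : ∀ e, 0 ≤ δ e)
    (h2 : ∀ e, θ e + δ e ≤ 1) (e : E) (l l' : Lab) : 0 ≤ ker θ δ e l l' := by
  cases l <;> cases l' <;> (simp [ker, h0 e, h1 e]; try linarith [h2 e])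

theorem ker_sum (θ δ : E → ℝ) (e : E) (l : Lab) : ∑ l', ker θ δ e l l' = 1 := by
  rw [sum_lab]
  cases l <;> simp [ker]

end

/-! ### One coordinate -/

section

variable {n : ℕ}

/-- the section of a function -/
def sec (φ : (Fin (n + 1) → Lab) → ℝ) (l : Lab) : (Fin n → Lab) → ℝ := fun ω => φ (Fin.cons l ω)

theorem KE_cons (k : Fin (n + 1) → Lab → Lab → ℝ) (φ : (Fin (n + 1) → Lab) → ℝ) (l : Lab)
    (ω : Fin n → Lab) : KE k φ (Fin.cons l ω) =
      ∑ l', k 0 l l' * KE (fun i => k i.succ) (sec φ l') ω := by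
  unfold KE sec
  rw [EX_cons]
  simp only [Fin.cons_zero, Fin.cons_succ]

theorem cnt_cons (b : Bool) (y : Fin n → Bool) (l : Lab) (ω : Fin n → Lab) :
    cnt (Fin.cons b y : Fin (n + 1) → Bool) (Fin.cons l ω : Fin (n + 1) → Lab) =
      (if l = x ∧ b = true then 1 else 0) + cnt y ω := by
  unfold cnt
  rw [card_filter, card_filter, Fin.sum_univ_succ]
  simp only [Fin.cons_zero, Fin.cons_succ]

theorem dropf_cons (b : Bool) (y : Fin n → Bool) (l : Lab) (ω : Fin n → Lab) :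
    dropf (Fin.cons b y : Fin (n + 1) → Bool) (Fin.cons l ω : Fin (n + 1) → Lab) =
      (Fin.cons (if l = x ∧ b = false then o else l) (dropf y ω) : Fin (n + 1) → Lab) := by
  funext i
  refine Fin.cases ?_ (fun j => ?_) i
  · simp [dropf]
  · simp [dropf]

theorem Dec.sec {φ : (Fin (n + 1) → Lab) → ℝ} (h : Dec φ) (l : Lab) : Dec (sec φ l) := by
  intro ω ω' hω
  refine h _ _ fun i => ?_
  refine Fin.cases ?_ (fun j => ?_) i
  · simp
  · simpa using hω j

theorem Dec.sec_le {φ : (Fin (n + 1) → Lab) → ℝ} (h : Dec φ) (ω : Fin n → Lab) :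
    H183.sec φ x ω ≤ H183.sec φ o ω := by
  refine h _ _ fun i => ?_
  refine Fin.cases ?_ (fun j => ?_) i
  · simp
  · simp

theorem XI_cons_o {lam : ℝ} {θ δ : Fin (n + 1) → ℝ} (φ : (Fin (n + 1) → Lab) → ℝ)
    (ω : Fin n → Lab) : XI lam (fun i => ker θ δ i.succ) (sec φ o) ω ≤
      XI lam (ker θ δ) φ (Fin.cons o ω) := by
  refine le_XI fun y => ?_
  obtain ⟨b, y, rfl⟩ : ∃ (b : Bool) (y' : Fin n → Bool), y = Fin.cons b y' :=
    ⟨y 0, Fin.tail y, (Fin.cons_self_tail y).symm⟩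
  rw [cnt_cons, dropf_cons, KE_cons, sum_lab]
  simpa [ker] using XI_le lam (fun i => ker θ δ i.succ) (sec φ o) ω y

theorem XI_cons_r {lam : ℝ} {θ δ : Fin (n + 1) → ℝ} (h0 : ∀ e, 0 ≤ θ e)
    (h1 : ∀ e, 0 ≤ δ e) (h2 : ∀ e, θ e + δ e ≤ 1) (φ : (Fin (n + 1) → Lab) → ℝ)
    (ω : Fin n → Lab) :
    δ 0 * XI lam (fun i => ker θ δ i.succ) (sec φ o) ω +
      (1 - θ 0 - δ 0) * XI lam (fun i => ker θ δ i.succ) (sec φ r) ω +
      θ 0 * XI lam (fun i => ker θ δ i.succ) (sec φ x) ω ≤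
      XI lam (ker θ δ) φ (Fin.cons r ω) := by
  refine le_XI fun y => ?_
  obtain ⟨b, y, rfl⟩ : ∃ (b : Bool) (y' : Fin n → Bool), y = Fin.cons b y' :=
    ⟨y 0, Fin.tail y, (Fin.cons_self_tail y).symm⟩
  rw [cnt_cons, dropf_cons, KE_cons, sum_lab]
  have h3 := XI_le lam (fun i => ker θ δ i.succ) (sec φ o) ω y
  have h4 := XI_le lam (fun i => ker θ δ i.succ) (sec φ r) ω y
  have h5 := XI_le lam (fun i => ker θ δ i.succ) (sec φ x) ω y
  have h6 := mul_le_mul_of_nonneg_left h3 (h1 0)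
  have h7 := mul_le_mul_of_nonneg_left h4 (show 0 ≤ 1 - θ 0 - δ 0 by linarith [h2 0])
  have h8 := mul_le_mul_of_nonneg_left h5 (h0 0)
  simp [ker]
  nlinarith

theorem XI_cons_x {lam : ℝ} {θ δ : Fin (n + 1) → ℝ} (φ : (Fin (n + 1) → Lab) → ℝ)
    (ω : Fin n → Lab) (hl : 0 < lam) :
    min (XI lam (fun i => ker θ δ i.succ) (sec φ o) ω)
      (lam * XI lam (fun i => ker θ δ i.succ) (sec φ x) ω) ≤
      XI lam (ker θ δ) φ (Fin.cons x ω) := by
  refine le_XI fun y => ?_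
  obtain ⟨b, y, rfl⟩ : ∃ (b : Bool) (y' : Fin n → Bool), y = Fin.cons b y' :=
    ⟨y 0, Fin.tail y, (Fin.cons_self_tail y).symm⟩
  rw [cnt_cons, dropf_cons, KE_cons, sum_lab]
  cases b
  · refine (min_le_left _ _).trans ?_
    simpa [ker] using XI_le lam (fun i => ker θ δ i.succ) (sec φ o) ω y
  · refine (min_le_right _ _).trans ?_
    have h3 := mul_le_mul_of_nonneg_left (XI_le lam (fun i => ker θ δ i.succ) (sec φ x) ω y)
      hl.le
    simp [ker]
    rw [pow_add, pow_one]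
    linarith

/-- the inequality of one coordinate, all terms -/
theorem step_point {lam ρ θ δ ε : ℝ} (hP : Par lam ρ θ δ ε) {bo br bx co cr cx Xo Xr Xx : ℝ}
    (hbo : 0 < bo) (hbx : 0 < bx) (hbr : 0 < br) (hco : 0 < co) (hcx : 0 < cx) (hcr : 0 < cr)
    (hb : bx ≤ bo) (hc : cx ≤ co) (xo : co ≤ Xo)
    (xr : δ * co + (1 - θ - δ) * cr + θ * cx ≤ Xr) (xx : min co (lam * cx) ≤ Xx) :
    (1 - ρ - ρ * ε) * (bo ^ 4 / Xo) +
      ρ * (((δ + ε) * bo + (1 - θ - δ) * br + (θ - ε) * bx) ^ 4 / Xr) +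
      ρ * ε * (bx ^ 4 / Xx) ≤
    (1 - ρ * (1 - δ)) * (bo ^ 4 / co) + ρ * (1 - θ - δ) * (br ^ 4 / cr) +
      ρ * θ * (bx ^ 4 / cx) := by
  have hl : 0 < lam := lt_of_lt_of_le one_pos hP.lam1
  have hth : 0 ≤ θ := hP.eps0.trans hP.eps1
  have hone := hP.one bo br bx co cr cx hbx hb hbr hcx hc hcr
  have dpos : 0 < δ * co + (1 - θ - δ) * cr + θ * cx := by
    have h1 := mul_pos hP.del0 hco
    have h2 := mul_nonneg (show 0 ≤ 1 - θ - δ by linarith [hP.stay]) hcr.le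
    have h3 := mul_nonneg hth hcx.le
    linarith
  have mpos : 0 < min co (lam * cx) := lt_min hco (mul_pos hl hcx)
  have i1 : bo ^ 4 / Xo ≤ bo ^ 4 / co := div_le_div_of_nonneg_left (by positivity) hco xo
  have i2 : ((δ + ε) * bo + (1 - θ - δ) * br + (θ - ε) * bx) ^ 4 / Xr ≤
      ((δ + ε) * bo + (1 - θ - δ) * br + (θ - ε) * bx) ^ 4 /
        (δ * co + (1 - θ - δ) * cr + θ * cx) :=
    div_le_div_of_nonneg_left (by positivity) dpos xr
  have i3 : bx ^ 4 / Xx ≤ bx ^ 4 / min co (lam * cx) :=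
    div_le_div_of_nonneg_left (by positivity) mpos xx
  have j1 := mul_le_mul_of_nonneg_left i1 (show 0 ≤ 1 - ρ - ρ * ε by linarith [hP.rho1])
  have j2 := mul_le_mul_of_nonneg_left i2 hP.rho0
  have j3 := mul_le_mul_of_nonneg_left i3 (mul_nonneg hP.rho0 hP.eps0)
  have j4 := mul_le_mul_of_nonneg_left hone hP.rho0
  calc _ ≤ (1 - ρ - ρ * ε) * (bo ^ 4 / co) +
        ρ * (((δ + ε) * bo + (1 - θ - δ) * br + (θ - ε) * bx) ^ 4 /
          (δ * co + (1 - θ - δ) * cr + θ * cx)) +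
        ρ * ε * (bx ^ 4 / min co (lam * cx)) := by linarith
    _ = (1 - ρ - ρ * ε) * (bo ^ 4 / co) +
        ρ * (((δ + ε) * bo + (1 - θ - δ) * br + (θ - ε) * bx) ^ 4 /
          (δ * co + (1 - θ - δ) * cr + θ * cx) + ε * (bx ^ 4 / min co (lam * cx))) := by ring
    _ ≤ (1 - ρ - ρ * ε) * (bo ^ 4 / co) + ρ * ((δ + ε) * (bo ^ 4 / co) +
        (1 - θ - δ) * (br ^ 4 / cr) + θ * (bx ^ 4 / cx)) := by linarith
    _ = _ := by ring

/-- the terms `B ^ 4 / Xi` -/
noncomputable def trm {n : ℕ} (lam : ℝ) (k' k : Fin n → Lab → Lab → ℝ) (φ : (Fin n → Lab) → ℝ)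
    (ω : Fin n → Lab) : ℝ := KE k' φ ω ^ 4 / XI lam k φ ω

theorem trm_step {lam : ℝ} {ρ θ δ ε : Fin (n + 1) → ℝ}
    (hP : ∀ e, Par lam (ρ e) (θ e) (δ e) (ε e)) {φ : (Fin (n + 1) → Lab) → ℝ}
    (hφ : ∀ ω, 0 < φ ω) (hd : Dec φ) (ω : Fin n → Lab) :
    law ρ ε 0 o * trm lam (ker (fun e => θ e - ε e) fun e => δ e + ε e) (ker θ δ) φ
        (Fin.cons o ω) +
      law ρ ε 0 r * trm lam (ker (fun e => θ e - ε e) fun e => δ e + ε e) (ker θ δ) φ
        (Fin.cons r ω) +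
      law ρ ε 0 x * trm lam (ker (fun e => θ e - ε e) fun e => δ e + ε e) (ker θ δ) φ
        (Fin.cons x ω) ≤
    nat3 ρ θ δ 0 o * trm lam (fun i => ker (fun e => θ e - ε e) (fun e => δ e + ε e) (Fin.succ i))
        (fun i => ker θ δ (Fin.succ i)) (sec φ o) ω +
      nat3 ρ θ δ 0 r * trm lam (fun i => ker (fun e => θ e - ε e) (fun e => δ e + ε e)
        (Fin.succ i)) (fun i => ker θ δ (Fin.succ i)) (sec φ r) ω +
      nat3 ρ θ δ 0 x * trm lam (fun i => ker (fun e => θ e - ε e) (fun e => δ e + ε e)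
        (Fin.succ i)) (fun i => ker θ δ (Fin.succ i)) (sec φ x) ω := by
  have hl : 0 < lam := lt_of_lt_of_le one_pos (hP 0).lam1
  have hth : ∀ e, 0 ≤ θ e := fun e => (hP e).eps0.trans (hP e).eps1
  have hde : ∀ e, 0 ≤ δ e := fun e => (hP e).del0.le
  have hst : ∀ e, θ e + δ e ≤ 1 := fun e => (hP e).stay
  have hk : ∀ (e : Fin n) l l', 0 ≤ (fun i : Fin n => ker θ δ (Fin.succ i)) e l l' :=
    fun e l l' => ker_nonneg hth hde hst e.succ l l'
  have hk' : ∀ (e : Fin n) l l', 0 ≤ (fun i : Fin n =>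
      ker (fun e => θ e - ε e) (fun e => δ e + ε e) (Fin.succ i)) e l l' := fun e l l' =>
    ker_nonneg (θ := fun e => θ e - ε e) (δ := fun e => δ e + ε e)
      (fun e => by linarith [(hP e).eps1])
      (fun e => by linarith [(hP e).eps0, (hP e).del0]) (fun e => by linarith [hst e]) e.succ l l'
  have h1 : ∀ (e : Fin n) l, ∑ l', (fun i : Fin n => ker θ δ (Fin.succ i)) e l l' = 1 :=
    fun e l => ker_sum θ δ e.succ l
  have h1' : ∀ (e : Fin n) l, ∑ l', (fun i : Fin n =>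
      ker (fun e => θ e - ε e) (fun e => δ e + ε e) (Fin.succ i)) e l l' = 1 :=
    fun e l => ker_sum (fun e => θ e - ε e) (fun e => δ e + ε e) e.succ l
  have hs : ∀ l (ω : Fin n → Lab), 0 < sec φ l ω := fun l ω => hφ _
  have ko : KE (ker (fun e => θ e - ε e) fun e => δ e + ε e) φ (Fin.cons o ω) =
      KE (fun i => ker (fun e => θ e - ε e) (fun e => δ e + ε e) (Fin.succ i)) (sec φ o) ω := by
    rw [KE_cons, sum_lab]; simp [ker]
  have kx : KE (ker (fun e => θ e - ε e) fun e => δ e + ε e) φ (Fin.cons x ω) =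
      KE (fun i => ker (fun e => θ e - ε e) (fun e => δ e + ε e) (Fin.succ i)) (sec φ x) ω := by
    rw [KE_cons, sum_lab]; simp [ker]
  have kr : KE (ker (fun e => θ e - ε e) fun e => δ e + ε e) φ (Fin.cons r ω) =
      (δ 0 + ε 0) *
        KE (fun i => ker (fun e => θ e - ε e) (fun e => δ e + ε e) (Fin.succ i)) (sec φ o) ω +
      (1 - θ 0 - δ 0) *
        KE (fun i => ker (fun e => θ e - ε e) (fun e => δ e + ε e) (Fin.succ i)) (sec φ r) ω +
      (θ 0 - ε 0) *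
        KE (fun i => ker (fun e => θ e - ε e) (fun e => δ e + ε e) (Fin.succ i)) (sec φ x) ω := by
    have a1 : ker (fun e => θ e - ε e) (fun e => δ e + ε e) 0 r o = δ 0 + ε 0 := rfl
    have a2 : ker (fun e => θ e - ε e) (fun e => δ e + ε e) 0 r r = 1 - θ 0 - δ 0 := by
      simp only [ker]; ring
    have a3 : ker (fun e => θ e - ε e) (fun e => δ e + ε e) 0 r x = θ 0 - ε 0 := rfl
    rw [KE_cons, sum_lab, a1, a2, a3]
  unfold trm
  rw [ko, kr, kx]
  exact step_point (hP 0) (KE_pos hk' h1' (hs o) ω) (KE_pos hk' h1' (hs x) ω)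
    (KE_pos hk' h1' (hs r) ω) (XI_pos hl hk h1 (hs o) ω) (XI_pos hl hk h1 (hs x) ω)
    (XI_pos hl hk h1 (hs r) ω) (KE_mono hk' (fun ω' => hd.sec_le ω') ω)
    (XI_mono hl hk (fun ω' => hd.sec_le ω') ω) (XI_cons_o φ ω) (XI_cons_r hth hde hst φ ω)
    (XI_cons_x φ ω hl)

/-- **QJRL*** on `Fin n` -/
theorem qjrl_fin (lam : ℝ) : ∀ (n : ℕ) (ρ θ δ ε : Fin n → ℝ)
    (_ : ∀ e, Par lam (ρ e) (θ e) (δ e) (ε e)) (φ : (Fin n → Lab) → ℝ) (_ : ∀ ω, 0 < φ ω)
    (_ : Dec φ),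
    EX (law ρ ε) (fun ω => KE (ker (fun e => θ e - ε e) fun e => δ e + ε e) φ ω ^ 4 /
      XI lam (ker θ δ) φ ω) ≤ EX (nat3 ρ θ δ) fun ω => φ ω ^ 3 := by
  intro n
  induction n with
  | zero =>
    intro ρ θ δ ε hP φ hφ hd
    have e1 : ∀ (w : Fin 0 → Lab → ℝ) (F : (Fin 0 → Lab) → ℝ), EX w F = F default := by
      intro w F
      unfold EX
      rw [Fintype.sum_unique]
      simp
    rw [e1, e1]
    have e2 : ∀ (k : Fin 0 → Lab → Lab → ℝ), KE k φ default = φ default := fun k => e1 _ _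
    have e3 : XI lam (ker θ δ) φ default = φ default := by
      refine le_antisymm ?_ (le_XI fun y => ?_)
      · refine (XI_le lam (ker θ δ) φ default default).trans ?_
        have : cnt (default : Fin 0 → Bool) default = 0 := by simp [cnt]
        rw [this, pow_zero, one_mul]
        have h2 : dropf (default : Fin 0 → Bool) default = default := Subsingleton.elim _ _
        rw [h2, e2]
      · have : cnt y default = 0 := by simp [cnt]
        rw [this, pow_zero, one_mul]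
        have h2 : dropf y default = default := Subsingleton.elim _ _
        rw [h2, e2]
    rw [e2, e3]
    have := hφ default
    rw [div_le_iff₀ this]
    exact le_of_eq (by ring)
  | succ n ih =>
    intro ρ θ δ ε hP φ hφ hd
    have hth : ∀ e, 0 ≤ θ e := fun e => (hP e).eps0.trans (hP e).eps1
    have hih : ∀ l, EX (fun i => law ρ ε (Fin.succ i)) (fun ω => trm lam
        (fun i => ker (fun e => θ e - ε e) (fun e => δ e + ε e) (Fin.succ i))
        (fun i => ker θ δ (Fin.succ i)) (sec φ l) ω) ≤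
        EX (fun i => nat3 ρ θ δ (Fin.succ i)) fun ω => φ (Fin.cons l ω) ^ 3 := fun l =>
      ih (fun i => ρ i.succ) (fun i => θ i.succ) (fun i => δ i.succ) (fun i => ε i.succ)
        (fun e => hP e.succ) (sec φ l) (fun ω => hφ _) (hd.sec l)
    have hw : ∀ e l, 0 ≤ law ρ ε e l := by
      intro e l
      have h1 := hP e
      cases l
      · simp only [law]; linarith [h1.rho1]
      · exact h1.rho0
      · exact mul_nonneg h1.rho0 h1.eps0
    have hn : ∀ l, 0 ≤ nat3 ρ θ δ 0 l := by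
      intro l
      have p0 := hP 0
      cases l
      · simp only [nat3]
        have h1 := mul_nonneg p0.rho0 p0.eps0
        have h2 := mul_nonneg p0.rho0 p0.del0.le
        linarith [p0.rho1]
      · exact mul_nonneg p0.rho0 (by linarith [p0.stay])
      · exact mul_nonneg p0.rho0 (hth 0)
    show EX (law ρ ε) (fun ω => trm lam (ker (fun e => θ e - ε e) fun e => δ e + ε e)
      (ker θ δ) φ ω) ≤ _
    rw [EX_cons, EX_cons, sum_lab, sum_lab]
    have hsum : ∀ (w : Fin n → Lab → ℝ) (F G H : (Fin n → Lab) → ℝ) (a b c : ℝ),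
        a * EX w F + b * EX w G + c * EX w H =
          EX w fun ω => a * F ω + b * G ω + c * H ω := by
      intro w F G H a b c
      rw [EX_add, EX_add, EX_mul, EX_mul, EX_mul]
    have step1 := EX_mono (w := fun i => law ρ ε (Fin.succ i)) (fun e l => hw _ _)
      (fun ω => trm_step hP hφ hd ω)
    rw [← hsum, ← hsum] at step1
    refine step1.trans ?_
    have s1 := mul_le_mul_of_nonneg_left (hih o) (hn o)
    have s2 := mul_le_mul_of_nonneg_left (hih r) (hn r)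
    have s3 := mul_le_mul_of_nonneg_left (hih x) (hn x)
    linarith

end

end Vale.Agent.P331.H183
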